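import Mathlib

/-!
The extremal curvature tensor `δ_{jk} δ_{αβ} - (1/m) δ_{jα} δ_{kβ}` showing that the pinching
threshold `1 - 1/m` is sharp.
-/

namespace Vale.Agent.Lib.P296

open Finset

/-- The extremal tensor `δ_{jk} δ_{αβ} - (1/m) δ_{jα} δ_{kβ}` on `Fin m`. -/
noncomputable def sharpTensor (m : ℕ) : Fin m → Fin m → Fin m → Fin m → ℂ :=
  fun j k α β =>
    (if j = k then (if α = β then (1 : ℂ) else 0) else 0)
      - (1 / (m : ℂ)) * (if j = α then (if k = β then (1 : ℂ) else 0) else 0)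

lemma sum_diag_A {m : ℕ} (F : Fin m → Fin m → Fin m → Fin m → ℂ) :
    ∑ j, ∑ k, ∑ α, ∑ β, (if j = k then (if α = β then F j k α β else 0) else 0)
      = ∑ j, ∑ α, F j j α α := by
  simp only [Finset.sum_ite_irrel, Finset.sum_const_zero, Finset.sum_ite_eq, Finset.mem_univ,
    if_true]

lemma sum_diag_B {m : ℕ} (F : Fin m → Fin m → Fin m → Fin m → ℂ) :
    ∑ j, ∑ k, ∑ α, ∑ β, (if j = α then (if k = β then F j k α β else 0) else 0)
      = ∑ j, ∑ k, F j k j k := by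
  simp only [Finset.sum_ite_irrel, Finset.sum_const_zero, Finset.sum_ite_eq, Finset.mem_univ,
    if_true]

lemma sharp_term (m : ℕ) (F : Fin m → Fin m → Fin m → Fin m → ℂ) :
    ∑ j, ∑ k, ∑ α, ∑ β, sharpTensor m j k α β * F j k α β
      = ∑ j, ∑ α, F j j α α - (1 / (m : ℂ)) * ∑ j, ∑ k, F j k j k := by
  have h1 : ∀ j k α β : Fin m,
      sharpTensor m j k α β * F j k α β
        = (if j = k then (if α = β then F j k α β else 0) else 0)
          - (1 / (m : ℂ)) * (if j = α then (if k = β then F j k α β else 0) else 0) := by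
    intro j k α β
    simp only [sharpTensor]
    split_ifs <;> ring
  simp only [h1, Finset.sum_sub_distrib, ← Finset.mul_sum]
  rw [sum_diag_A, sum_diag_B]

lemma sharp_griffiths (m : ℕ) (ξ v : Fin m → ℂ) :
    ∑ j, ∑ k, ∑ α, ∑ β,
        sharpTensor m j k α β * ξ j * (starRingEnd ℂ) (ξ k) * v α * (starRingEnd ℂ) (v β)
      = (((∑ j, ‖ξ j‖ ^ 2) * (∑ α, ‖v α‖ ^ 2) : ℝ) : ℂ)
        - (1 / (m : ℂ)) * ((Complex.normSq (∑ j, ξ j * v j) : ℝ) : ℂ) := by
  have h := sharp_term m (fun j k α β => ξ j * (starRingEnd ℂ) (ξ k) * v α * (starRingEnd ℂ) (v β))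
  have e : ∀ j k α β : Fin m,
      sharpTensor m j k α β * ξ j * (starRingEnd ℂ) (ξ k) * v α * (starRingEnd ℂ) (v β)
        = sharpTensor m j k α β * (ξ j * (starRingEnd ℂ) (ξ k) * v α * (starRingEnd ℂ) (v β)) := by
    intro j k α β
    ring
  simp only [e]
  rw [h]
  congr 1
  · push_cast
    rw [Finset.sum_mul_sum]
    refine Finset.sum_congr rfl fun j _ => Finset.sum_congr rfl fun α _ => ?_
    rw [← Complex.ofReal_pow, ← Complex.ofReal_pow, ← Complex.normSq_eq_norm_sq,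
      ← Complex.normSq_eq_norm_sq, ← Complex.mul_conj, ← Complex.mul_conj]
    ring
  · congr 1
    rw [← Complex.mul_conj, map_sum, Finset.sum_mul_sum]
    refine Finset.sum_congr rfl fun j _ => Finset.sum_congr rfl fun k _ => ?_
    simp only [map_mul]
    ring

lemma sharp_nakano (m : ℕ) (u : Fin m → Fin m → ℂ) :
    ∑ j, ∑ k, ∑ α, ∑ β, sharpTensor m j k α β * u j α * (starRingEnd ℂ) (u k β)
      = ((∑ j, ∑ α, ‖u j α‖ ^ 2 : ℝ) : ℂ)
        - (1 / (m : ℂ)) * ((Complex.normSq (∑ j, u j j) : ℝ) : ℂ) := by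
  have h := sharp_term m (fun j k α β => u j α * (starRingEnd ℂ) (u k β))
  have e : ∀ j k α β : Fin m,
      sharpTensor m j k α β * u j α * (starRingEnd ℂ) (u k β)
        = sharpTensor m j k α β * (u j α * (starRingEnd ℂ) (u k β)) := by
    intro j k α β
    ring
  simp only [e]
  rw [h]
  congr 1
  · push_cast
    refine Finset.sum_congr rfl fun j _ => Finset.sum_congr rfl fun α _ => ?_
    rw [← Complex.ofReal_pow, ← Complex.normSq_eq_norm_sq, ← Complex.mul_conj]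
  · congr 1
    rw [← Complex.mul_conj, map_sum, Finset.sum_mul_sum]

/-- Cauchy-Schwarz in the form needed. -/
lemma normSq_sum_mul_le (m : ℕ) (ξ v : Fin m → ℂ) :
    Complex.normSq (∑ j, ξ j * v j) ≤ (∑ j, ‖ξ j‖ ^ 2) * (∑ α, ‖v α‖ ^ 2) := by
  rw [Complex.normSq_eq_norm_sq]
  have h1 : ‖∑ j, ξ j * v j‖ ≤ ∑ j, ‖ξ j‖ * ‖v j‖ := by
    refine (norm_sum_le _ _).trans ?_
    refine Finset.sum_le_sum fun j _ => ?_
    rw [norm_mul]
  have h2 : (∑ j, ‖ξ j‖ * ‖v j‖) ^ 2 ≤ (∑ j, ‖ξ j‖ ^ 2) * (∑ α, ‖v α‖ ^ 2) :=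
    Finset.sum_mul_sq_le_sq_mul_sq Finset.univ (fun j => ‖ξ j‖) (fun j => ‖v j‖)
  have h3 : 0 ≤ ‖∑ j, ξ j * v j‖ := norm_nonneg _
  nlinarith

end Vale.Agent.Lib.P296
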