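import Vale.Agent.Lib.P296.Pinching
import Vale.Agent.Lib.P296.Sharp

/-!
Assembled statements for P296: the pinching bound and its sharpness.
-/

namespace Vale.Agent.Lib.P296

open Finset

theorem pinching_main (n r : ℕ) (c : Fin n → Fin n → Fin r → Fin r → ℂ) (δ M : ℝ)
    (hG : ∀ (ξ : Fin n → ℂ) (v : Fin r → ℂ),
      δ * ((∑ j, ‖ξ j‖ ^ 2) * (∑ α, ‖v α‖ ^ 2)) ≤
        (∑ j, ∑ k, ∑ α, ∑ β,
          c j k α β * ξ j * (starRingEnd ℂ) (ξ k) * v α * (starRingEnd ℂ) (v β)).re ∧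
      (∑ j, ∑ k, ∑ α, ∑ β,
          c j k α β * ξ j * (starRingEnd ℂ) (ξ k) * v α * (starRingEnd ℂ) (v β)).re ≤
        M * ((∑ j, ‖ξ j‖ ^ 2) * (∑ α, ‖v α‖ ^ 2)))
    (u : Fin n → Fin r → ℂ) :
    (((min n r : ℕ) : ℝ) * δ - (((min n r : ℕ) : ℝ) - 1) * M) * (∑ j, ∑ α, ‖u j α‖ ^ 2) ≤
        (∑ j, ∑ k, ∑ α, ∑ β, c j k α β * u j α * (starRingEnd ℂ) (u k β)).re ∧
      ((((min n r : ℕ) : ℝ) - 1) * M < ((min n r : ℕ) : ℝ) * δ → u ≠ 0 →
        0 < (∑ j, ∑ k, ∑ α, ∑ β, c j k α β * u j α * (starRingEnd ℂ) (u k β)).re) := by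
  have hbound : (((min n r : ℕ) : ℝ) * δ - (((min n r : ℕ) : ℝ) - 1) * M)
      * (∑ j, ∑ α, ‖u j α‖ ^ 2) ≤
        (∑ j, ∑ k, ∑ α, ∑ β, c j k α β * u j α * (starRingEnd ℂ) (u k β)).re := by
    rcases le_total n r with h | h
    · rw [min_eq_left h]
      exact nakano_bound_dim c δ M hG u
    · rw [min_eq_right h]
      exact nakano_bound_rank c δ M hG u
  refine ⟨hbound, fun hpin hu => ?_⟩
  have hpos : 0 < ∑ j, ∑ α, ‖u j α‖ ^ 2 := by
    have hne : ∃ j α, u j α ≠ 0 := by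
      by_contra hcon
      simp only [not_exists, not_not] at hcon
      exact hu (funext fun j => funext fun α => hcon j α)
    obtain ⟨j, α, hjα⟩ := hne
    have h1 : 0 < ‖u j α‖ ^ 2 := by positivity
    have h2 : ‖u j α‖ ^ 2 ≤ ∑ α', ‖u j α'‖ ^ 2 :=
      Finset.single_le_sum (f := fun α' => ‖u j α'‖ ^ 2) (fun _ _ => by positivity)
        (Finset.mem_univ α)
    have h3 : ∑ α', ‖u j α'‖ ^ 2 ≤ ∑ j', ∑ α', ‖u j' α'‖ ^ 2 :=
      Finset.single_le_sum (f := fun j' => ∑ α', ‖u j' α'‖ ^ 2)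
        (fun _ _ => Finset.sum_nonneg fun _ _ => by positivity) (Finset.mem_univ j)
    linarith
  have : 0 < (((min n r : ℕ) : ℝ) * δ - (((min n r : ℕ) : ℝ) - 1) * M)
      * (∑ j, ∑ α, ‖u j α‖ ^ 2) := mul_pos (by linarith) hpos
  linarith

theorem sharp_main (m : ℕ) (hm : 1 ≤ m) :
    ∃ c : Fin m → Fin m → Fin m → Fin m → ℂ,
      (∀ (ξ : Fin m → ℂ) (v : Fin m → ℂ),
        (1 - 1 / (m : ℝ)) * ((∑ j, ‖ξ j‖ ^ 2) * (∑ α, ‖v α‖ ^ 2)) ≤
          (∑ j, ∑ k, ∑ α, ∑ β,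
            c j k α β * ξ j * (starRingEnd ℂ) (ξ k) * v α * (starRingEnd ℂ) (v β)).re ∧
        (∑ j, ∑ k, ∑ α, ∑ β,
            c j k α β * ξ j * (starRingEnd ℂ) (ξ k) * v α * (starRingEnd ℂ) (v β)).re ≤
          1 * ((∑ j, ‖ξ j‖ ^ 2) * (∑ α, ‖v α‖ ^ 2))) ∧
      ∃ u : Fin m → Fin m → ℂ, u ≠ 0 ∧
        (∑ j, ∑ k, ∑ α, ∑ β, c j k α β * u j α * (starRingEnd ℂ) (u k β)).re = 0 := by
  have hm0 : (0 : ℝ) < m := by exact_mod_cast hm
  refine ⟨sharpTensor m, ?_, ?_⟩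
  · intro ξ v
    rw [sharp_griffiths]
    have hre : ((((∑ j, ‖ξ j‖ ^ 2) * (∑ α, ‖v α‖ ^ 2) : ℝ) : ℂ)
        - (1 / (m : ℂ)) * ((Complex.normSq (∑ j, ξ j * v j) : ℝ) : ℂ)).re
        = (∑ j, ‖ξ j‖ ^ 2) * (∑ α, ‖v α‖ ^ 2)
          - (1 / (m : ℝ)) * Complex.normSq (∑ j, ξ j * v j) := by
      have : (1 / (m : ℂ)) = ((1 / (m : ℝ) : ℝ) : ℂ) := by push_cast; ring
      rw [this, ← Complex.ofReal_mul, ← Complex.ofReal_sub, Complex.ofReal_re]
    rw [hre]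
    have hcs := normSq_sum_mul_le m ξ v
    have hnn : 0 ≤ Complex.normSq (∑ j, ξ j * v j) := Complex.normSq_nonneg _
    have hinv : 0 < 1 / (m : ℝ) := by positivity
    constructor
    · nlinarith
    · nlinarith
  · refine ⟨fun j α => if j = α then 1 else 0, ?_, ?_⟩
    · intro h
      have := congrFun (congrFun h ⟨0, hm⟩) ⟨0, hm⟩
      simp at this
    · rw [sharp_nakano]
      have h1 : ∑ j : Fin m, ∑ α : Fin m, ‖(if j = α then (1 : ℂ) else 0)‖ ^ 2 = (m : ℝ) := by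
        have : ∀ j α : Fin m, ‖(if j = α then (1 : ℂ) else 0)‖ ^ 2
            = if j = α then (1 : ℝ) else 0 := by
          intro j α
          split_ifs <;> simp
        simp only [this, Finset.sum_ite_eq, Finset.mem_univ, if_true, Finset.sum_const,
          Finset.card_univ, Fintype.card_fin, nsmul_eq_mul, mul_one]
      have h2 : ∑ j : Fin m, (if j = j then (1 : ℂ) else 0) = (m : ℂ) := by
        simp
      rw [h1, h2]
      have h3 : Complex.normSq (m : ℂ) = (m : ℝ) * (m : ℝ) := by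
        rw [← Complex.ofReal_natCast, Complex.normSq_ofReal]
      rw [h3]
      have : (1 / (m : ℂ)) = ((1 / (m : ℝ) : ℝ) : ℂ) := by push_cast; ring
      rw [this, ← Complex.ofReal_mul, ← Complex.ofReal_sub, Complex.ofReal_re]
      field_simp
      ring

end Vale.Agent.Lib.P296
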