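import Mathlib

/-!
Phase averaging (Demailly-Skoda style) for a four-argument form that is
additive in each slot, linear in slots 1, 2 and conjugate linear in slots 3, 4.
-/

namespace Vale.Agent.Lib.P296

open Finset

section abstract_form

variable {V V' ι : Type*} [AddCommGroup V] [Module ℂ V] [AddCommGroup V'] [Module ℂ V']

/-- Bundled hypotheses: `w` is additive in each slot, homogeneous in slots 1, 2 and
conjugate homogeneous in slots 3, 4. -/
structure IsSesq (w : V → V' → V → V' → ℂ) : Prop where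
  a1 : ∀ x x' y p q, w (x + x') y p q = w x y p q + w x' y p q
  a2 : ∀ x y y' p q, w x (y + y') p q = w x y p q + w x y' p q
  a3 : ∀ x y p p' q, w x y (p + p') q = w x y p q + w x y p' q
  a4 : ∀ x y p q q', w x y p (q + q') = w x y p q + w x y p q'
  s1 : ∀ (z : ℂ) x y p q, w (z • x) y p q = z * w x y p q
  s2 : ∀ (z : ℂ) x y p q, w x (z • y) p q = z * w x y p q
  s3 : ∀ (z : ℂ) x y p q, w x y (z • p) q = (starRingEnd ℂ) z * w x y p q
  s4 : ∀ (z : ℂ) x y p q, w x y p (z • q) = (starRingEnd ℂ) z * w x y p q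

variable {w : V → V' → V → V' → ℂ}

/-- Four point average of a general term. -/
theorem IsSesq.avg4 (h : IsSesq w) (x1 x2 : V) (y1 y2 : V') (p1 p2 : V) (q1 q2 : V') :
    w (x1 + x2) (y1 + y2) (p1 + p2) (q1 + q2)
      + w (x1 + Complex.I • x2) (y1 + (-Complex.I) • y2) (p1 + Complex.I • p2)
          (q1 + (-Complex.I) • q2)
      + w (x1 + (-1 : ℂ) • x2) (y1 + (-1 : ℂ) • y2) (p1 + (-1 : ℂ) • p2) (q1 + (-1 : ℂ) • q2)
      + w (x1 + (-Complex.I) • x2) (y1 + Complex.I • y2) (p1 + (-Complex.I) • p2)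
          (q1 + Complex.I • q2)
      = 4 * (w x1 y1 p1 q1 + w x2 y2 p1 q1 + w x1 y1 p2 q2 + w x2 y1 p2 q1 + w x1 y2 p1 q2
          + w x2 y2 p2 q2) := by
  simp only [h.a1, h.a2, h.a3, h.a4, h.s1, h.s2, h.s3, h.s4, map_neg, Complex.conj_I, map_one]
  ring_nf
  simp only [Complex.I_sq, Complex.I_pow_four]
  ring

theorem IsSesq.z1 (h : IsSesq w) (y : V') (p : V) (q : V') : w 0 y p q = 0 := by
  have := h.s1 0 0 y p q
  simpa using this

theorem IsSesq.z2 (h : IsSesq w) (x : V) (p : V) (q : V') : w x 0 p q = 0 := by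
  have := h.s2 0 x 0 p q
  simpa using this

theorem IsSesq.z3 (h : IsSesq w) (x : V) (y : V') (q : V') : w x y 0 q = 0 := by
  have := h.s3 0 x y 0 q
  simpa using this

theorem IsSesq.z4 (h : IsSesq w) (x : V) (y : V') (p : V) : w x y p 0 = 0 := by
  have := h.s4 0 x y p 0
  simpa using this

theorem IsSesq.avg12 (h : IsSesq w) (x1 x2 : V) (y1 y2 : V') (p : V) (q : V') :
    w (x1 + x2) (y1 + y2) p q
      + w (x1 + Complex.I • x2) (y1 + (-Complex.I) • y2) p q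
      + w (x1 + (-1 : ℂ) • x2) (y1 + (-1 : ℂ) • y2) p q
      + w (x1 + (-Complex.I) • x2) (y1 + Complex.I • y2) p q
      = 4 * (w x1 y1 p q + w x2 y2 p q) := by
  have := h.avg4 x1 x2 y1 y2 p 0 q 0
  simpa [h.z3, h.z4] using this

theorem IsSesq.avg34 (h : IsSesq w) (x : V) (y : V') (p1 p2 : V) (q1 q2 : V') :
    w x y (p1 + p2) (q1 + q2)
      + w x y (p1 + Complex.I • p2) (q1 + (-Complex.I) • q2)
      + w x y (p1 + (-1 : ℂ) • p2) (q1 + (-1 : ℂ) • q2)
      + w x y (p1 + (-Complex.I) • p2) (q1 + Complex.I • q2)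
      = 4 * (w x y p1 q1 + w x y p2 q2) := by
  have := h.avg4 x 0 y 0 p1 p2 q1 q2
  simpa [h.z1, h.z2] using this

theorem IsSesq.avg13 (h : IsSesq w) (x1 x2 : V) (y : V') (p1 p2 : V) (q : V') :
    w (x1 + x2) y (p1 + p2) q
      + w (x1 + Complex.I • x2) y (p1 + Complex.I • p2) q
      + w (x1 + (-1 : ℂ) • x2) y (p1 + (-1 : ℂ) • p2) q
      + w (x1 + (-Complex.I) • x2) y (p1 + (-Complex.I) • p2) q
      = 4 * (w x1 y p1 q + w x2 y p2 q) := by
  have := h.avg4 x1 x2 y 0 p1 p2 q 0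
  simpa [h.z2, h.z4] using this

theorem IsSesq.avg24 (h : IsSesq w) (x : V) (y1 y2 : V') (p : V) (q1 q2 : V') :
    w x (y1 + y2) p (q1 + q2)
      + w x (y1 + (-Complex.I) • y2) p (q1 + (-Complex.I) • q2)
      + w x (y1 + (-1 : ℂ) • y2) p (q1 + (-1 : ℂ) • q2)
      + w x (y1 + Complex.I • y2) p (q1 + Complex.I • q2)
      = 4 * (w x y1 p q1 + w x y2 p q2) := by
  have := h.avg4 x 0 y1 y2 p 0 q1 q2
  simpa [h.z1, h.z3] using this

/-- The quantity whose real part is shown to be nonnegative by induction. -/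
def avgR (w : V → V' → V → V' → ℂ) (ξ : ι → V) (f : ι → V') (a : V) (b : V')
    (s : Finset ι) : ℂ :=
  w a b a b
    + ∑ j ∈ s, (w a b (ξ j) (f j) + w (ξ j) (f j) a b + w a (f j) a (f j)
        + w (ξ j) b (ξ j) b)
    + (∑ j ∈ s, ∑ k ∈ s, w (ξ j) (f j) (ξ k) (f k)
        + (∑ j ∈ s, ∑ k ∈ s, w (ξ j) (f k) (ξ j) (f k) - ∑ j ∈ s, w (ξ j) (f j) (ξ j) (f j)))

theorem IsSesq.avgR_insert [DecidableEq ι] (h : IsSesq w) (ξ : ι → V) (f : ι → V') (a : V)
    (b : V') (s : Finset ι) (i : ι) (hi : i ∉ s) :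
    avgR w ξ f (a + ξ i) (b + f i) s
      + avgR w ξ f (a + Complex.I • ξ i) (b + (-Complex.I) • f i) s
      + avgR w ξ f (a + (-1 : ℂ) • ξ i) (b + (-1 : ℂ) • f i) s
      + avgR w ξ f (a + (-Complex.I) • ξ i) (b + Complex.I • f i) s
      = 4 * avgR w ξ f a b (insert i s) := by
  have e1 := h.avg4 a (ξ i) b (f i) a (ξ i) b (f i)
  have e2 : ∀ j, _ := fun j => h.avg12 a (ξ i) b (f i) (ξ j) (f j)
  have e3 : ∀ j, _ := fun j => h.avg34 (ξ j) (f j) a (ξ i) b (f i)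
  have e4 : ∀ j, _ := fun j => h.avg13 a (ξ i) (f j) a (ξ i) (f j)
  have e5 : ∀ j, _ := fun j => h.avg24 (ξ j) b (f i) (ξ j) b (f i)
  have e6 : ∑ j ∈ s, (w (a + ξ i) (b + f i) (ξ j) (f j) + w (ξ j) (f j) (a + ξ i) (b + f i)
        + w (a + ξ i) (f j) (a + ξ i) (f j) + w (ξ j) (b + f i) (ξ j) (b + f i))
      + ∑ j ∈ s, (w (a + Complex.I • ξ i) (b + (-Complex.I) • f i) (ξ j) (f j)
        + w (ξ j) (f j) (a + Complex.I • ξ i) (b + (-Complex.I) • f i)
        + w (a + Complex.I • ξ i) (f j) (a + Complex.I • ξ i) (f j)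
        + w (ξ j) (b + (-Complex.I) • f i) (ξ j) (b + (-Complex.I) • f i))
      + ∑ j ∈ s, (w (a + (-1 : ℂ) • ξ i) (b + (-1 : ℂ) • f i) (ξ j) (f j)
        + w (ξ j) (f j) (a + (-1 : ℂ) • ξ i) (b + (-1 : ℂ) • f i)
        + w (a + (-1 : ℂ) • ξ i) (f j) (a + (-1 : ℂ) • ξ i) (f j)
        + w (ξ j) (b + (-1 : ℂ) • f i) (ξ j) (b + (-1 : ℂ) • f i))
      + ∑ j ∈ s, (w (a + (-Complex.I) • ξ i) (b + Complex.I • f i) (ξ j) (f j)
        + w (ξ j) (f j) (a + (-Complex.I) • ξ i) (b + Complex.I • f i)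
        + w (a + (-Complex.I) • ξ i) (f j) (a + (-Complex.I) • ξ i) (f j)
        + w (ξ j) (b + Complex.I • f i) (ξ j) (b + Complex.I • f i))
      = ∑ j ∈ s, 4 * ((w a b (ξ j) (f j) + w (ξ i) (f i) (ξ j) (f j))
          + (w (ξ j) (f j) a b + w (ξ j) (f j) (ξ i) (f i))
          + (w a (f j) a (f j) + w (ξ i) (f j) (ξ i) (f j))
          + (w (ξ j) b (ξ j) b + w (ξ j) (f i) (ξ j) (f i))) := by
    rw [← Finset.sum_add_distrib, ← Finset.sum_add_distrib, ← Finset.sum_add_distrib]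
    refine Finset.sum_congr rfl fun j _ => ?_
    linear_combination e2 j + e3 j + e4 j + e5 j
  simp only [avgR, Finset.sum_insert hi]
  simp only [← Finset.mul_sum, Finset.sum_add_distrib] at e6 ⊢
  linear_combination e1 + e6

theorem IsSesq.avgR_nonneg [DecidableEq ι] (h : IsSesq w) (pos : ∀ x y, 0 ≤ (w x y x y).re)
    (ξ : ι → V) (f : ι → V') (s : Finset ι) :
    ∀ (a : V) (b : V'), 0 ≤ (avgR w ξ f a b s).re := by
  induction s using Finset.induction_on with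
  | empty =>
    intro a b
    simpa [avgR] using pos a b
  | insert i s hi ih =>
    intro a b
    have key := h.avgR_insert ξ f a b s i hi
    have h1 := ih (a + ξ i) (b + f i)
    have h2 := ih (a + Complex.I • ξ i) (b + (-Complex.I) • f i)
    have h3 := ih (a + (-1 : ℂ) • ξ i) (b + (-1 : ℂ) • f i)
    have h4 := ih (a + (-Complex.I) • ξ i) (b + Complex.I • f i)
    have e : ∀ X : ℂ, (4 * X).re = 4 * X.re := fun X => by simp
    have := congrArg Complex.re key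
    rw [Complex.add_re, Complex.add_re, Complex.add_re, e] at this
    linarith

/-- Phase averaging inequality. -/
theorem IsSesq.phase_avg [DecidableEq ι] (h : IsSesq w) (pos : ∀ x y, 0 ≤ (w x y x y).re)
    (ξ : ι → V) (f : ι → V') (s : Finset ι) :
    0 ≤ (∑ j ∈ s, ∑ k ∈ s, w (ξ j) (f j) (ξ k) (f k)
        + (∑ j ∈ s, ∑ k ∈ s, w (ξ j) (f k) (ξ j) (f k)
          - ∑ j ∈ s, w (ξ j) (f j) (ξ j) (f j))).re := by
  have := h.avgR_nonneg pos ξ f s 0 0
  simpa [avgR, h.z1, h.z2, h.z3, h.z4] using this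

end abstract_form

end Vale.Agent.Lib.P296
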