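import Vale.Agent.Lib.P296.PhaseAvg

/-!
Griffiths pinching implies a Nakano lower bound: concrete coordinate version.
-/

namespace Vale.Agent.Lib.P296

open Finset

variable {n r : ℕ}

/-- The polarized curvature form on decomposable tensors. -/
def quad (c : Fin n → Fin n → Fin r → Fin r → ℂ)
    (x : Fin n → ℂ) (y : Fin r → ℂ) (p : Fin n → ℂ) (q : Fin r → ℂ) : ℂ :=
  ∑ j, ∑ k, ∑ α, ∑ β, c j k α β * x j * (starRingEnd ℂ) (p k) * y α * (starRingEnd ℂ) (q β)

/-- The standard Hermitian inner product on coordinate space. -/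
def ip {m : ℕ} (x y : Fin m → ℂ) : ℂ := ∑ j, x j * (starRingEnd ℂ) (y j)

/-- The curvature form shifted by a multiple of the identity form. -/
def shifted (c : Fin n → Fin n → Fin r → Fin r → ℂ) (δ : ℝ)
    (x : Fin n → ℂ) (y : Fin r → ℂ) (p : Fin n → ℂ) (q : Fin r → ℂ) : ℂ :=
  quad c x y p q - δ * (ip x p * ip y q)

variable (c : Fin n → Fin n → Fin r → Fin r → ℂ)

lemma quad_add1 (x x' : Fin n → ℂ) (y : Fin r → ℂ) (p : Fin n → ℂ) (q : Fin r → ℂ) :
    quad c (x + x') y p q = quad c x y p q + quad c x' y p q := by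
  simp only [quad, Pi.add_apply, mul_add, add_mul, Finset.sum_add_distrib]

lemma quad_add2 (x : Fin n → ℂ) (y y' : Fin r → ℂ) (p : Fin n → ℂ) (q : Fin r → ℂ) :
    quad c x (y + y') p q = quad c x y p q + quad c x y' p q := by
  simp only [quad, Pi.add_apply, mul_add, add_mul, Finset.sum_add_distrib]

lemma quad_add3 (x : Fin n → ℂ) (y : Fin r → ℂ) (p p' : Fin n → ℂ) (q : Fin r → ℂ) :
    quad c x y (p + p') q = quad c x y p q + quad c x y p' q := by
  simp only [quad, Pi.add_apply, mul_add, add_mul, Finset.sum_add_distrib, map_add]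

lemma quad_add4 (x : Fin n → ℂ) (y : Fin r → ℂ) (p : Fin n → ℂ) (q q' : Fin r → ℂ) :
    quad c x y p (q + q') = quad c x y p q + quad c x y p q' := by
  simp only [quad, Pi.add_apply, mul_add, Finset.sum_add_distrib, map_add]

lemma quad_smul1 (z : ℂ) (x : Fin n → ℂ) (y : Fin r → ℂ) (p : Fin n → ℂ) (q : Fin r → ℂ) :
    quad c (z • x) y p q = z * quad c x y p q := by
  simp only [quad, Pi.smul_apply, smul_eq_mul, Finset.mul_sum]
  refine Finset.sum_congr rfl fun j _ => Finset.sum_congr rfl fun k _ =>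
    Finset.sum_congr rfl fun α _ => Finset.sum_congr rfl fun β _ => ?_
  ring

lemma quad_smul2 (z : ℂ) (x : Fin n → ℂ) (y : Fin r → ℂ) (p : Fin n → ℂ) (q : Fin r → ℂ) :
    quad c x (z • y) p q = z * quad c x y p q := by
  simp only [quad, Pi.smul_apply, smul_eq_mul, Finset.mul_sum]
  refine Finset.sum_congr rfl fun j _ => Finset.sum_congr rfl fun k _ =>
    Finset.sum_congr rfl fun α _ => Finset.sum_congr rfl fun β _ => ?_
  ring

lemma quad_smul3 (z : ℂ) (x : Fin n → ℂ) (y : Fin r → ℂ) (p : Fin n → ℂ) (q : Fin r → ℂ) :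
    quad c x y (z • p) q = (starRingEnd ℂ) z * quad c x y p q := by
  simp only [quad, Pi.smul_apply, smul_eq_mul, Finset.mul_sum, map_mul]
  refine Finset.sum_congr rfl fun j _ => Finset.sum_congr rfl fun k _ =>
    Finset.sum_congr rfl fun α _ => Finset.sum_congr rfl fun β _ => ?_
  ring

lemma quad_smul4 (z : ℂ) (x : Fin n → ℂ) (y : Fin r → ℂ) (p : Fin n → ℂ) (q : Fin r → ℂ) :
    quad c x y p (z • q) = (starRingEnd ℂ) z * quad c x y p q := by
  simp only [quad, Pi.smul_apply, smul_eq_mul, Finset.mul_sum, map_mul]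
  refine Finset.sum_congr rfl fun j _ => Finset.sum_congr rfl fun k _ =>
    Finset.sum_congr rfl fun α _ => Finset.sum_congr rfl fun β _ => ?_
  ring

lemma ip_add_left {m : ℕ} (x x' y : Fin m → ℂ) : ip (x + x') y = ip x y + ip x' y := by
  simp only [ip, Pi.add_apply, add_mul, Finset.sum_add_distrib]

lemma ip_add_right {m : ℕ} (x y y' : Fin m → ℂ) : ip x (y + y') = ip x y + ip x y' := by
  simp only [ip, Pi.add_apply, mul_add, Finset.sum_add_distrib, map_add]

lemma ip_smul_left {m : ℕ} (z : ℂ) (x y : Fin m → ℂ) : ip (z • x) y = z * ip x y := by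
  simp only [ip, Pi.smul_apply, smul_eq_mul, Finset.mul_sum]
  refine Finset.sum_congr rfl fun j _ => ?_
  ring

lemma ip_smul_right {m : ℕ} (z : ℂ) (x y : Fin m → ℂ) :
    ip x (z • y) = (starRingEnd ℂ) z * ip x y := by
  simp only [ip, Pi.smul_apply, smul_eq_mul, Finset.mul_sum, map_mul]
  refine Finset.sum_congr rfl fun j _ => ?_
  ring

lemma ip_self {m : ℕ} (x : Fin m → ℂ) : ip x x = ((∑ j, ‖x j‖ ^ 2 : ℝ) : ℂ) := by
  simp only [ip, Complex.mul_conj, Complex.normSq_eq_norm_sq]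
  push_cast
  rfl

lemma isSesq_shifted (δ : ℝ) : IsSesq (shifted c δ) where
  a1 := by
    intro x x' y p q
    simp only [shifted, quad_add1, ip_add_left]
    ring
  a2 := by
    intro x y y' p q
    simp only [shifted, quad_add2, ip_add_left]
    ring
  a3 := by
    intro x y p p' q
    simp only [shifted, quad_add3, ip_add_right]
    ring
  a4 := by
    intro x y p q q'
    simp only [shifted, quad_add4, ip_add_right]
    ring
  s1 := by
    intro z x y p q
    simp only [shifted, quad_smul1, ip_smul_left]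
    ring
  s2 := by
    intro z x y p q
    simp only [shifted, quad_smul2, ip_smul_left]
    ring
  s3 := by
    intro z x y p q
    simp only [shifted, quad_smul3, ip_smul_right]
    ring
  s4 := by
    intro z x y p q
    simp only [shifted, quad_smul4, ip_smul_right]
    ring

lemma shifted_self_re (δ : ℝ) (x : Fin n → ℂ) (y : Fin r → ℂ) :
    (shifted c δ x y x y).re
      = (quad c x y x y).re - δ * ((∑ j, ‖x j‖ ^ 2) * (∑ α, ‖y α‖ ^ 2)) := by
  simp only [shifted, ip_self, Complex.sub_re]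
  rw [← Complex.ofReal_mul, ← Complex.ofReal_mul, Complex.ofReal_re]

lemma quad_single (x p : Fin n → ℂ) (a b : Fin r) :
    quad c x (Pi.single a 1) p (Pi.single b 1)
      = ∑ j, ∑ k, c j k a b * x j * (starRingEnd ℂ) (p k) := by
  simp only [quad]
  refine Finset.sum_congr rfl fun j _ => Finset.sum_congr rfl fun k _ => ?_
  rw [Finset.sum_eq_single a]
  · rw [Finset.sum_eq_single b]
    · simp
    · intro β _ hβ
      simp [hβ]
    · simp
  · intro α _ hα
    simp [hα]
  · simp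

lemma ip_single {m : ℕ} (a b : Fin m) :
    ip (Pi.single a (1 : ℂ)) (Pi.single b (1 : ℂ)) = if a = b then 1 else 0 := by
  simp only [ip]
  rw [Finset.sum_eq_single a]
  · by_cases h : a = b
    · subst h
      simp
    · simp [h]
  · intro j _ hj
    simp [hj]
  · simp

lemma single_norm_sq {m : ℕ} (b : Fin m) :
    ∑ α, ‖(Pi.single b (1 : ℂ) : Fin m → ℂ) α‖ ^ 2 = 1 := by
  rw [Finset.sum_eq_single b]
  · simp
  · intro α _ hα
    simp [hα]
  · simp

lemma sum4_comm {A B : Type*} [Fintype A] [Fintype B] (F : A → A → B → B → ℂ) :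
    ∑ α, ∑ β, ∑ j, ∑ k, F α β j k = ∑ j, ∑ k, ∑ α, ∑ β, F α β j k := by
  calc ∑ α, ∑ β, ∑ j, ∑ k, F α β j k
      = ∑ α, ∑ j, ∑ β, ∑ k, F α β j k :=
        Finset.sum_congr rfl fun α _ => Finset.sum_comm
    _ = ∑ j, ∑ α, ∑ β, ∑ k, F α β j k := Finset.sum_comm
    _ = ∑ j, ∑ α, ∑ k, ∑ β, F α β j k :=
        Finset.sum_congr rfl fun j _ => Finset.sum_congr rfl fun α _ => Finset.sum_comm
    _ = ∑ j, ∑ k, ∑ α, ∑ β, F α β j k :=
        Finset.sum_congr rfl fun j _ => Finset.sum_comm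

/-- Nakano lower bound from Griffiths pinching, bundle-rank side. -/
theorem nakano_bound_rank (δ M : ℝ)
    (hG : ∀ (x : Fin n → ℂ) (y : Fin r → ℂ),
      δ * ((∑ j, ‖x j‖ ^ 2) * (∑ α, ‖y α‖ ^ 2)) ≤ (quad c x y x y).re ∧
      (quad c x y x y).re ≤ M * ((∑ j, ‖x j‖ ^ 2) * (∑ α, ‖y α‖ ^ 2)))
    (u : Fin n → Fin r → ℂ) :
    ((r : ℝ) * δ - ((r : ℝ) - 1) * M) * (∑ j, ∑ α, ‖u j α‖ ^ 2)
      ≤ (∑ j, ∑ k, ∑ α, ∑ β, c j k α β * u j α * (starRingEnd ℂ) (u k β)).re := by
  classical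
  have hS := isSesq_shifted c δ
  have pos : ∀ x y, 0 ≤ (shifted c δ x y x y).re := by
    intro x y
    rw [shifted_self_re]
    linarith [(hG x y).1]
  have key := hS.phase_avg pos (fun α : Fin r => fun j => u j α)
    (fun α : Fin r => (Pi.single α (1 : ℂ) : Fin r → ℂ)) Finset.univ
  -- the Nakano term
  have hN1 : ∑ α : Fin r, ∑ β : Fin r, quad c (fun j => u j α) (Pi.single α 1)
        (fun j => u j β) (Pi.single β 1)
      = ∑ j, ∑ k, ∑ α, ∑ β, c j k α β * u j α * (starRingEnd ℂ) (u k β) := by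
    simp only [quad_single]
    exact sum4_comm (fun α β j k => c j k α β * u j α * (starRingEnd ℂ) (u k β))
  have hN2 : ∑ α : Fin r, ∑ β : Fin r, (δ : ℂ) * (ip (fun j => u j α) (fun j => u j β)
        * ip (Pi.single α (1 : ℂ) : Fin r → ℂ) (Pi.single β (1 : ℂ)))
      = ((δ * ∑ j, ∑ α, ‖u j α‖ ^ 2 : ℝ) : ℂ) := by
    simp only [ip_single, mul_ite, mul_one, mul_zero, Finset.sum_ite_eq, Finset.mem_univ,
      if_true, ip_self]
    rw [← Finset.mul_sum, Finset.sum_comm]
    push_cast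
    rfl
  have hN : ∑ α : Fin r, ∑ β : Fin r, shifted c δ (fun j => u j α) (Pi.single α 1)
        (fun j => u j β) (Pi.single β 1)
      = (∑ j, ∑ k, ∑ α, ∑ β, c j k α β * u j α * (starRingEnd ℂ) (u k β))
        - ((δ * ∑ j, ∑ α, ‖u j α‖ ^ 2 : ℝ) : ℂ) := by
    simp only [shifted, Finset.sum_sub_distrib]
    rw [hN1, hN2]
  -- the off-diagonal terms
  have hoff : ∀ α : Fin r,
      (∑ β : Fin r, shifted c δ (fun j => u j α) (Pi.single β 1) (fun j => u j α)
          (Pi.single β 1)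
        - shifted c δ (fun j => u j α) (Pi.single α 1) (fun j => u j α) (Pi.single α 1)).re
      ≤ ((r : ℝ) - 1) * (M - δ) * ∑ j, ‖u j α‖ ^ 2 := by
    intro α
    rw [← Finset.add_sum_erase Finset.univ _ (Finset.mem_univ α), add_sub_cancel_left,
      Complex.re_sum]
    have hb : ∀ β ∈ Finset.univ.erase α,
        (shifted c δ (fun j => u j α) (Pi.single β 1) (fun j => u j α) (Pi.single β 1)).re
          ≤ (M - δ) * ∑ j, ‖u j α‖ ^ 2 := by
      intro β _
      rw [shifted_self_re]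
      have := (hG (fun j => u j α) (Pi.single β 1)).2
      rw [single_norm_sq] at this ⊢
      linarith
    have := Finset.sum_le_card_nsmul _ _ _ hb
    rw [Finset.card_erase_of_mem (Finset.mem_univ α), Finset.card_univ, Fintype.card_fin,
      nsmul_eq_mul] at this
    have hr : 1 ≤ r := Nat.succ_le_of_lt (Fin.pos α)
    rw [Nat.cast_sub hr] at this
    simpa [mul_assoc] using this
  have hB : (∑ α : Fin r, ∑ β : Fin r, shifted c δ (fun j => u j α) (Pi.single β 1)
        (fun j => u j α) (Pi.single β 1)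
      - ∑ α : Fin r, shifted c δ (fun j => u j α) (Pi.single α 1) (fun j => u j α)
        (Pi.single α 1))
      = ∑ α : Fin r, (∑ β : Fin r, shifted c δ (fun j => u j α) (Pi.single β 1)
        (fun j => u j α) (Pi.single β 1)
      - shifted c δ (fun j => u j α) (Pi.single α 1) (fun j => u j α) (Pi.single α 1)) := by
    rw [Finset.sum_sub_distrib]
  have hBre := Complex.re_sum Finset.univ (fun α : Fin r =>
    (∑ β : Fin r, shifted c δ (fun j => u j α) (Pi.single β 1)
        (fun j => u j α) (Pi.single β 1)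
      - shifted c δ (fun j => u j α) (Pi.single α 1) (fun j => u j α) (Pi.single α 1)))
  rw [Complex.add_re, hN, hB, hBre, Complex.sub_re, Complex.ofReal_re] at key
  have hsum := Finset.sum_le_sum (fun α (_ : α ∈ Finset.univ) => hoff α)
  rw [← Finset.mul_sum] at hsum
  have hcomm : ∑ α : Fin r, ∑ j : Fin n, ‖u j α‖ ^ 2 = ∑ j, ∑ α, ‖u j α‖ ^ 2 :=
    Finset.sum_comm
  rw [hcomm] at hsum
  linarith

/-- Nakano lower bound from Griffiths pinching, base-dimension side. -/
theorem nakano_bound_dim (δ M : ℝ)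
    (hG : ∀ (x : Fin n → ℂ) (y : Fin r → ℂ),
      δ * ((∑ j, ‖x j‖ ^ 2) * (∑ α, ‖y α‖ ^ 2)) ≤ (quad c x y x y).re ∧
      (quad c x y x y).re ≤ M * ((∑ j, ‖x j‖ ^ 2) * (∑ α, ‖y α‖ ^ 2)))
    (u : Fin n → Fin r → ℂ) :
    ((n : ℝ) * δ - ((n : ℝ) - 1) * M) * (∑ j, ∑ α, ‖u j α‖ ^ 2)
      ≤ (∑ j, ∑ k, ∑ α, ∑ β, c j k α β * u j α * (starRingEnd ℂ) (u k β)).re := by
  have hq : ∀ (y : Fin r → ℂ) (x : Fin n → ℂ),
      quad (fun α β j k => c j k α β) y x y x = quad c x y x y := by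
    intro y x
    simp only [quad]
    rw [sum4_comm]
    refine Finset.sum_congr rfl fun j _ => Finset.sum_congr rfl fun k _ =>
      Finset.sum_congr rfl fun α _ => Finset.sum_congr rfl fun β _ => ?_
    ring
  have hG' : ∀ (y : Fin r → ℂ) (x : Fin n → ℂ),
      δ * ((∑ α, ‖y α‖ ^ 2) * (∑ j, ‖x j‖ ^ 2))
        ≤ (quad (fun α β j k => c j k α β) y x y x).re ∧
      (quad (fun α β j k => c j k α β) y x y x).re
        ≤ M * ((∑ α, ‖y α‖ ^ 2) * (∑ j, ‖x j‖ ^ 2)) := by
    intro y x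
    rw [hq, mul_comm (∑ α, ‖y α‖ ^ 2)]
    exact hG x y
  have := nakano_bound_rank (fun α β j k => c j k α β) δ M hG' (fun α j => u j α)
  have e1 : ∑ α : Fin r, ∑ j : Fin n, ‖u j α‖ ^ 2 = ∑ j, ∑ α, ‖u j α‖ ^ 2 := Finset.sum_comm
  have e2 : ∑ α : Fin r, ∑ β : Fin r, ∑ j : Fin n, ∑ k : Fin n,
      c j k α β * u j α * (starRingEnd ℂ) (u k β)
      = ∑ j, ∑ k, ∑ α, ∑ β, c j k α β * u j α * (starRingEnd ℂ) (u k β) :=
    sum4_comm (fun α β j k => c j k α β * u j α * (starRingEnd ℂ) (u k β))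
  rw [e1, e2] at this
  exact this

end Vale.Agent.Lib.P296
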